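/-
`L_p`-projections: the strict convexity lemma and Theorem A on the kernel.
`X = Z ⊕_p W` with `Z = range P`, `W = ker P`, `1 < p`.
-/
import Vale.Agent.Lib.P084.LSum.Final

namespace Vale.Agent.Lib.P084.LpSumG

open Vale.Agent.Lib.P084.UC Vale.Agent.Lib.P084.Inf

variable {X Y : Type*} [NormedAddCommGroup X] [NormedSpace ℝ X] [NormedAddCommGroup Y]
  [NormedSpace ℝ Y]

/-- An `L_p`-projection: a linear idempotent with `‖x‖^p = ‖P x‖^p + ‖x - P x‖^p`. -/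
structure IsLpProj (p : ℝ) (P : X →ₗ[ℝ] X) : Prop where
  one_lt : 1 < p
  idem : ∀ x, P (P x) = P x
  norm_split : ∀ x, ‖x‖ ^ p = ‖P x‖ ^ p + ‖x - P x‖ ^ p

/-- The complementary projection. -/
def cp (P : X →ₗ[ℝ] X) : X →ₗ[ℝ] X := LinearMap.id - P

@[simp] theorem cp_apply (P : X →ₗ[ℝ] X) (x : X) : cp P x = x - P x := rfl

section Real

variable {p : ℝ}

theorem add_rpow_le (hp : 1 < p) {a c : ℝ} (ha : 0 ≤ a) (hc : 0 ≤ c) :
    (a + c) ^ p ≤ (2 : ℝ) ^ p / 2 * (a ^ p + c ^ p) := by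
  have h := (convexOn_rpow hp.le).2 (Set.mem_Ici.mpr ha) (Set.mem_Ici.mpr hc)
    (by norm_num : (0 : ℝ) ≤ 1 / 2) (by norm_num : (0 : ℝ) ≤ 1 / 2) (by norm_num)
  simp only [smul_eq_mul] at h
  have e : a + c = 2 * (1 / 2 * a + 1 / 2 * c) := by ring
  have hm : 0 ≤ 1 / 2 * a + 1 / 2 * c := by positivity
  rw [e, Real.mul_rpow (by norm_num) hm]
  have h2 : (0 : ℝ) < 2 ^ p := by positivity
  calc _ ≤ (2 : ℝ) ^ p * (1 / 2 * a ^ p + 1 / 2 * c ^ p) := mul_le_mul_of_nonneg_left h h2.le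
    _ = _ := by ring

theorem add_rpow_lt (hp : 1 < p) {a c : ℝ} (ha : 0 ≤ a) (hc : 0 ≤ c) (hne : a ≠ c) :
    (a + c) ^ p < (2 : ℝ) ^ p / 2 * (a ^ p + c ^ p) := by
  have h := (strictConvexOn_rpow hp).2 (Set.mem_Ici.mpr ha) (Set.mem_Ici.mpr hc) hne
    (by norm_num : (0 : ℝ) < 1 / 2) (by norm_num : (0 : ℝ) < 1 / 2) (by norm_num)
  simp only [smul_eq_mul] at h
  have e : a + c = 2 * (1 / 2 * a + 1 / 2 * c) := by ring
  have hm : 0 ≤ 1 / 2 * a + 1 / 2 * c := by positivity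
  rw [e, Real.mul_rpow (by norm_num) hm]
  have h2 : (0 : ℝ) < 2 ^ p := by positivity
  calc _ < (2 : ℝ) ^ p * (1 / 2 * a ^ p + 1 / 2 * c ^ p) := mul_lt_mul_of_pos_left h h2
    _ = _ := by ring

/-- The real form of the strict convexity of `ℓ_p^2`. -/
theorem real_key (hp : 1 < p) {A B C D E F r : ℝ} (hA : 0 ≤ A) (hB : 0 ≤ B) (hC : 0 ≤ C)
    (hD : 0 ≤ D) (hE : 0 ≤ E) (hF : 0 ≤ F) (hr : 0 ≤ r) (h1 : A ^ p + B ^ p = r ^ p)
    (h2 : C ^ p + D ^ p = r ^ p) (h3 : E ^ p + F ^ p = (2 * r) ^ p) (hEl : E ≤ A + C)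
    (hFl : F ≤ B + D) : A = C ∧ B = D ∧ E = A + C ∧ F = B + D := by
  have hp0 : 0 < p := by linarith
  have hK : (2 * r) ^ p = (2 : ℝ) ^ p * r ^ p := Real.mul_rpow (by norm_num) hr
  have hK0 : (0 : ℝ) < 2 ^ p := by positivity
  have s1 := add_rpow_le hp hA hC
  have s2 := add_rpow_le hp hB hD
  have e1 : E ^ p ≤ (A + C) ^ p := Real.rpow_le_rpow hE hEl hp0.le
  have e2 : F ^ p ≤ (B + D) ^ p := Real.rpow_le_rpow hF hFl hp0.le
  have total : (2 : ℝ) ^ p / 2 * (A ^ p + C ^ p) + (2 : ℝ) ^ p / 2 * (B ^ p + D ^ p) =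
      (2 : ℝ) ^ p * r ^ p := by
    have : A ^ p + C ^ p + (B ^ p + D ^ p) = 2 * r ^ p := by linarith
    calc _ = (2 : ℝ) ^ p / 2 * (A ^ p + C ^ p + (B ^ p + D ^ p)) := by ring
      _ = _ := by rw [this]; ring
  refine ⟨?_, ?_, ?_, ?_⟩
  · by_contra hne
    have := add_rpow_lt hp hA hC hne
    linarith
  · by_contra hne
    have := add_rpow_lt hp hB hD hne
    linarith
  · by_contra hne
    have hlt : E < A + C := lt_of_le_of_ne hEl hne
    have := Real.rpow_lt_rpow hE hlt hp0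
    linarith
  · by_contra hne
    have hlt : F < B + D := lt_of_le_of_ne hFl hne
    have := Real.rpow_lt_rpow hF hlt hp0
    linarith

end Real

namespace IsLpProj

variable {p : ℝ} {P : X →ₗ[ℝ] X}

theorem hp0 (hP : IsLpProj p P) : 0 < p := by linarith [hP.one_lt]

theorem compl (hP : IsLpProj p P) : IsLpProj p (cp P) := by
  refine ⟨hP.one_lt, fun x => ?_, fun x => ?_⟩
  · simp only [cp_apply, map_sub, hP.idem]
    abel
  · have h := hP.norm_split x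
    simp only [cp_apply]
    have e : x - (x - P x) = P x := by abel
    rw [e, h]
    ring

theorem norm_add_rpow (hP : IsLpProj p P) {z w : X} (hz : P z = z) (hw : P w = 0) :
    ‖z + w‖ ^ p = ‖z‖ ^ p + ‖w‖ ^ p := by
  have h := hP.norm_split (z + w)
  rw [map_add, hz, hw, add_zero, add_sub_cancel_left] at h
  exact h

theorem norm_sub_proj_le (hP : IsLpProj p P) (x : X) : ‖x - P x‖ ≤ ‖x‖ := by
  have h := hP.norm_split x
  have h1 : 0 ≤ ‖P x‖ ^ p := by positivity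
  exact (Real.rpow_le_rpow_iff (norm_nonneg _) (norm_nonneg _) hP.hp0).1 (by linarith)

theorem norm_proj_le (hP : IsLpProj p P) (x : X) : ‖P x‖ ≤ ‖x‖ := by
  have h := hP.norm_split x
  have h1 : 0 ≤ ‖x - P x‖ ^ p := by positivity
  exact (Real.rpow_le_rpow_iff (norm_nonneg _) (norm_nonneg _) hP.hp0).1 (by linarith)

/-- Cofacial vectors of the same norm split coordinatewise. -/
theorem split_cofacial (hP : IsLpProj p P) {a b : X} (hab : ‖a‖ = ‖b‖) (h : ‖a + b‖ = 2 * ‖a‖) :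
    ‖P a‖ = ‖P b‖ ∧ ‖a - P a‖ = ‖b - P b‖ ∧ ‖P a + P b‖ = ‖P a‖ + ‖P b‖ ∧
      ‖(a - P a) + (b - P b)‖ = ‖a - P a‖ + ‖b - P b‖ := by
  have h1 := hP.norm_split a
  have h2 := hP.norm_split b
  have h3 := hP.norm_split (a + b)
  have e : a + b - P (a + b) = (a - P a) + (b - P b) := by rw [map_add]; abel
  rw [e, map_add, h] at h3
  rw [← hab] at h2
  have hk := real_key hP.one_lt (norm_nonneg (P a)) (norm_nonneg (a - P a)) (norm_nonneg (P b))
    (norm_nonneg (b - P b)) (norm_nonneg (P a + P b)) (norm_nonneg ((a - P a) + (b - P b)))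
    (norm_nonneg a) h1.symm h2.symm h3.symm (norm_add_le _ _) (norm_add_le _ _)
  exact ⟨hk.1, hk.2.1, hk.2.2.1, hk.2.2.2⟩

end IsLpProj

/-- Theorem A on the kernel of a linear map. -/
theorem cofacial_ker (P : X →ₗ[ℝ] X) {Ξ : X → X}
    (h0 : ∀ e, P e = 0 → ‖e‖ = 1 → P (Ξ e) = 0 ∧ ‖Ξ e‖ = 1)
    (h2 : ∀ e e', P e = 0 → P e' = 0 → ‖e‖ = 1 → ‖e'‖ = 1 → ‖Ξ e - Ξ e'‖ ≤ ‖e - e'‖)
    (h3 : ∀ e, P e = 0 → ‖e‖ = 1 → ‖e + Ξ e‖ = 2) {e : X} (he : P e = 0) (he1 : ‖e‖ = 1) :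
    Ξ e = e := by
  classical
  let W : Submodule ℝ X := LinearMap.ker P
  have memW : ∀ v : X, v ∈ W ↔ P v = 0 := fun v => LinearMap.mem_ker
  let Ξ' : W → W := fun u => if h : ‖(u : X)‖ = 1 then
    ⟨Ξ u, (memW _).2 (h0 u ((memW _).1 u.2) h).1⟩ else u
  have hΞ' : ∀ u : W, ‖(u : X)‖ = 1 → ((Ξ' u : W) : X) = Ξ u := by
    intro u hu
    simp only [Ξ', dif_pos hu]
  have key := eq_self_of_cofacial (X := W) (Ξ := Ξ')
    (fun x hx => by
      have hx' : ‖(x : X)‖ = 1 := hx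
      change ‖((Ξ' x : W) : X)‖ = 1
      rw [hΞ' x hx']
      exact (h0 x ((memW _).1 x.2) hx').2)
    (fun a b ha hb => by
      have ha' : ‖(a : X)‖ = 1 := ha
      have hb' : ‖(b : X)‖ = 1 := hb
      change ‖((Ξ' a : W) : X) - ((Ξ' b : W) : X)‖ ≤ ‖(a : X) - (b : X)‖
      rw [hΞ' a ha', hΞ' b hb']
      exact h2 a b ((memW _).1 a.2) ((memW _).1 b.2) ha' hb')
    (fun a ha => by
      have ha' : ‖(a : X)‖ = 1 := ha
      change ‖(a : X) + ((Ξ' a : W) : X)‖ = 2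
      rw [hΞ' a ha']
      exact h3 a ((memW _).1 a.2) ha')
    (y := (⟨e, (memW _).2 he⟩ : W)) he1
  have := congrArg (Subtype.val) key
  rw [hΞ' ⟨e, (memW _).2 he⟩ he1] at this
  exact this

end Vale.Agent.Lib.P084.LpSumG
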